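import Mathlib

/-!
# P260: bi-Lipschitz bounds from densities
-/

open Metric Set Topology Filter MeasureTheory
open scoped NNReal ENNReal

namespace Vale.Agent.P260.R3.H283

/-- A Lipschitz homeomorphism with uniform density bounds onto a linearly locally connected space
is bi-Lipschitz. -/
theorem bilip {M N : Type*} [MetricSpace M] [CompactSpace M] [MetricSpace N] [CompactSpace N]
    [MeasurableSpace M] [BorelSpace M] {n : ℕ} (μ : Measure M) (e : M ≃ₜ N) {K : ℝ≥0}
    (he : LipschitzWith K e) {c C r0 : ℝ} (hc : 0 < c) (hr0 : 0 < r0)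
    (hlow : ∀ x r, 0 < r → r < r0 → ENNReal.ofReal (c * r ^ n) ≤ μ (ball x r))
    (hup : ∀ y r, 0 < r → r < r0 → μ (e ⁻¹' ball y r) ≤ ENNReal.ofReal (C * r ^ n))
    {L : ℝ} (hL : 0 < L)
    (hllc : ∀ y y2 : N, y ≠ y2 →
      ∃ S : Set N, IsConnected S ∧ y ∈ S ∧ y2 ∈ S ∧ S ⊆ ball y (L * dist y y2)) :
    ∃ K2 : ℝ≥0, LipschitzWith K2 e.symm := by
  have hLK : 0 < L + K := by positivity
  set A : ℝ := C * (L + K) ^ n / c with hA
  set t0 : ℝ := r0 / (L + K + 1) with ht0
  have ht00 : 0 < t0 := by positivity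
  set D : ℝ := diam (univ : Set M) with hD
  have hD0 : 0 ≤ D / t0 := div_nonneg diam_nonneg ht00.le
  refine ⟨Real.toNNReal (max (2 * A) (D / t0)), LipschitzWith.of_dist_le_mul fun y y2 => ?_⟩
  rw [Real.coe_toNNReal _ (hD0.trans (le_max_right _ _))]
  rcases eq_or_ne y y2 with rfl | hy
  · simp
  set t : ℝ := dist y y2 with ht
  have htp : 0 < t := dist_pos.2 hy
  rcases le_or_gt t0 t with h1 | h1
  · -- far points
    have h2 : dist (e.symm y) (e.symm y2) ≤ D :=
      dist_le_diam_of_mem isCompact_univ.isBounded (mem_univ _) (mem_univ _)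
    calc dist (e.symm y) (e.symm y2) ≤ D := h2
      _ = D / t0 * t0 := by field_simp
      _ ≤ D / t0 * t := mul_le_mul_of_nonneg_left h1 hD0
      _ ≤ max (2 * A) (D / t0) * t := mul_le_mul_of_nonneg_right (le_max_right _ _) htp.le
  · -- close points
    have h3 : t * (L + K + 1) < r0 := (lt_div_iff₀ (by positivity)).1 h1
    have h4 : t < r0 := by nlinarith [mul_pos htp hLK]
    have h5 : (L + K) * t < r0 := by nlinarith
    obtain ⟨S, hS, hyS, hy2S, hSb⟩ := hllc y y2 hy
    set x : M := e.symm y with hx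
    set x2 : M := e.symm y2 with hx2
    set s : ℝ := dist x x2 with hs
    have hs0 : 0 ≤ s := dist_nonneg
    have hS' : IsPreconnected ((fun z => dist x (e.symm z)) '' S) :=
      hS.isPreconnected.image _ (continuous_const.dist e.symm.continuous).continuousOn
    have hI : Icc 0 s ⊆ (fun z => dist x (e.symm z)) '' S := by
      refine hS'.Icc_subset ⟨y, hyS, ?_⟩ ⟨y2, hy2S, rfl⟩
      simp [hx]
    set k : ℕ := ⌊s / (2 * t)⌋₊ with hk
    have hkle : (k : ℝ) ≤ s / (2 * t) := Nat.floor_le (by positivity)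
    have hpt : ∀ j : ℕ, ∃ z : N, j ≤ k → z ∈ S ∧ dist x (e.symm z) = 2 * t * j := by
      intro j
      by_cases hj : j ≤ k
      · have h6 : 2 * t * (j : ℝ) ∈ Icc 0 s := by
          refine ⟨by positivity, ?_⟩
          have h7 : (j : ℝ) ≤ s / (2 * t) := le_trans (by exact_mod_cast hj) hkle
          rw [le_div_iff₀ (by positivity)] at h7
          linarith
        obtain ⟨z, hz, hz2⟩ := hI h6
        exact ⟨z, fun _ => ⟨hz, hz2⟩⟩
      · exact ⟨y, fun h => absurd h hj⟩
    choose z hz using hpt
    have hdisj : (↑(Finset.range (k + 1)) : Set ℕ).PairwiseDisjoint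
        fun j => ball (e.symm (z j)) t := by
      intro i hi j hj hij
      have hi' : i ≤ k := by simpa [Nat.lt_succ_iff] using hi
      have hj' : j ≤ k := by simpa [Nat.lt_succ_iff] using hj
      refine ball_disjoint_ball ?_
      have h8 := abs_dist_sub_le (e.symm (z i)) (e.symm (z j)) x
      rw [dist_comm _ x, dist_comm _ x, (hz i hi').2, (hz j hj').2, ← mul_sub, abs_mul,
        abs_of_pos (by positivity : 0 < 2 * t)] at h8
      have h9 : (1 : ℝ) ≤ |(i : ℝ) - j| := by
        have : (1 : ℤ) ≤ |(i : ℤ) - j| := by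
          refine Int.one_le_abs ?_
          omega
        exact_mod_cast this
      nlinarith
    have hsub : (⋃ j ∈ Finset.range (k + 1), ball (e.symm (z j)) t) ⊆
        e ⁻¹' ball y ((L + K) * t) := by
      intro w hw
      obtain ⟨j, hj, hw⟩ := mem_iUnion₂.1 hw
      have hj' : j ≤ k := by simpa [Nat.lt_succ_iff] using hj
      rw [mem_ball] at hw
      have e1 : dist (e w) (z j) ≤ K * t := by
        have := he.dist_le_mul w (e.symm (z j))
        rw [e.apply_symm_apply] at this
        exact this.trans (mul_le_mul_of_nonneg_left hw.le K.2)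
      have e2 : dist (z j) y < L * t := mem_ball.1 (hSb (hz j hj').1)
      change e w ∈ ball y ((L + K) * t)
      rw [mem_ball]
      have e3 := dist_triangle (e w) (z j) y
      nlinarith
    have hmeas : ∑ j ∈ Finset.range (k + 1), μ (ball (e.symm (z j)) t) ≤
        ENNReal.ofReal (C * ((L + K) * t) ^ n) := by
      rw [← measure_biUnion_finset hdisj fun j _ => measurableSet_ball]
      exact (measure_mono hsub).trans (hup y _ (by positivity) h5)
    have hmeas2 : ((k + 1 : ℕ) : ℝ≥0∞) * ENNReal.ofReal (c * t ^ n) ≤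
        ENNReal.ofReal (C * ((L + K) * t) ^ n) := by
      refine le_trans ?_ hmeas
      have : ∑ j ∈ Finset.range (k + 1), ENNReal.ofReal (c * t ^ n) ≤
          ∑ j ∈ Finset.range (k + 1), μ (ball (e.symm (z j)) t) :=
        Finset.sum_le_sum fun j _ => hlow _ _ htp h4
      rwa [Finset.sum_const, Finset.card_range, nsmul_eq_mul] at this
    have htn : 0 < t ^ n := by positivity
    have hreal : ((k + 1 : ℕ) : ℝ) * (c * t ^ n) ≤ C * ((L + K) * t) ^ n := by
      rw [← ENNReal.ofReal_natCast, ← ENNReal.ofReal_mul (by positivity)] at hmeas2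
      by_contra h10
      rw [not_le] at h10
      have h11 : 0 < ((k + 1 : ℕ) : ℝ) * (c * t ^ n) := by positivity
      exact absurd hmeas2 (not_le.2 ((ENNReal.ofReal_lt_ofReal_iff h11).2 h10))
    have hkA : ((k : ℝ) + 1) ≤ A := by
      rw [hA, le_div_iff₀ hc]
      rw [mul_pow] at hreal
      push_cast at hreal
      have h12 : (((k : ℝ) + 1) * c) * t ^ n ≤ (C * (L + K) ^ n) * t ^ n := by
        calc (((k : ℝ) + 1) * c) * t ^ n = ((k : ℝ) + 1) * (c * t ^ n) := by ring
          _ ≤ C * ((L + K) ^ n * t ^ n) := hreal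
          _ = _ := by ring
      exact le_of_mul_le_mul_right h12 htn
    have h13 : s / (2 * t) < k + 1 := Nat.lt_floor_add_one _
    rw [div_lt_iff₀ (by positivity)] at h13
    have h14 : s ≤ 2 * A * t := by nlinarith
    exact h14.trans (mul_le_mul_of_nonneg_right (le_max_left _ _) htp.le)

end Vale.Agent.P260.R3.H283
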