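import Mathlib.Topology.Homotopy.Lifting
import Mathlib.Topology.Covering.Basic
import Mathlib.Topology.MetricSpace.Basic

/-!
# P260: a local homeomorphism with a homotopy section is injective
-/

open Set Topology

namespace Vale.Agent.P260.R3.H283

/-- A local homeomorphism of a compact connected Hausdorff space which has a homotopy section is
injective. -/
theorem inj_of_local {M N : Type*} [TopologicalSpace M] [CompactSpace M] [T2Space M]
    [PreconnectedSpace M] [TopologicalSpace N] [T2Space N] (f : C(M, N)) (g : C(N, M))
    (hfg : (f.comp g).Homotopic (ContinuousMap.id N)) (hl : IsLocalHomeomorph f) :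
    Function.Injective f := by
  have hc : IsCoveringMap f := isLocalHomeomorph_iff_isCoveringMap.1 hl
  obtain ⟨H⟩ := hfg
  have H0 : ∀ a, H.toContinuousMap (0, a) = f (g a) := fun a => H.map_zero_left a
  let s : N → M := fun y => hc.liftHomotopy H.toContinuousMap g H0 (1, y)
  have hs : Continuous s := by
    have : Continuous fun y : N => ((1 : unitInterval), y) := by fun_prop
    exact (hc.liftHomotopy H.toContinuousMap g H0).continuous.comp this
  have hfs : ∀ y, f (s y) = y := by
    intro y
    have h1 := congrFun (hc.liftHomotopy_lifts H.toContinuousMap g H0) (1, y)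
    have h2 : H.toContinuousMap (1, y) = y := H.map_one_left y
    exact h1.trans h2
  have hopen : IsOpenEmbedding s := by
    refine hl.isOpenEmbedding_of_comp ?_ hs
    have : (f : M → N) ∘ s = id := funext hfs
    rw [this]
    exact IsOpenEmbedding.id
  rcases isEmpty_or_nonempty M with hM | ⟨⟨x0⟩⟩
  · exact fun a => isEmptyElim a
  have hclosed : IsClosed (range s) := by
    have : range s = {x | s (f x) = x} := by
      ext x
      constructor
      · rintro ⟨y, rfl⟩
        show s (f (s y)) = s y
        rw [hfs]
      · intro h
        exact ⟨f x, h⟩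
    rw [this]
    exact isClosed_eq (hs.comp f.continuous) continuous_id
  have huniv : range s = univ :=
    IsClopen.eq_univ ⟨hclosed, hopen.isOpen_range⟩ ⟨s (f x0), mem_range_self _⟩
  intro a b hab
  obtain ⟨y, rfl⟩ : a ∈ range s := by rw [huniv]; trivial
  obtain ⟨z, rfl⟩ : b ∈ range s := by rw [huniv]; trivial
  rw [hfs, hfs] at hab
  rw [hab]

end Vale.Agent.P260.R3.H283
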