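import Mathlib

/-!
# P260: limits of Lipschitz maps between compact metric spaces
-/

open Metric Set Topology Filter
open scoped NNReal ENNReal

namespace Vale.Agent.P260.R3.H283

/-- Arzela-Ascoli, in the form needed here: maps with converging Lipschitz constants have a
uniform limit point with the limit constant. -/
theorem exists_limit {M : Type*} {N : Type*} [MetricSpace M] [CompactSpace M] [MetricSpace N]
    [CompactSpace N] (F : ℕ → C(M, N)) (L : ℕ → ℝ≥0) (hF : ∀ k, LipschitzWith (L k) (F k))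
    {L0 : ℝ≥0} (hL : Tendsto L atTop (𝓝 L0)) :
    ∃ f : C(M, N), LipschitzWith L0 f ∧
      ∀ η : ℝ, 0 < η → ∃ᶠ k in atTop, ∀ x, dist (F k x) (f x) < η := by
  let 𝒰 : Ultrafilter ℕ := hyperfilter ℕ
  have hU : (𝒰 : Filter ℕ) ≤ atTop := by
    rw [← Nat.cofinite_eq_atTop]
    exact hyperfilter_le_cofinite
  have hLU : Tendsto (fun k => (L k : ℝ)) 𝒰 (𝓝 (L0 : ℝ)) :=
    (NNReal.tendsto_coe.2 hL).mono_left hU
  have limN : ∀ u : ℕ → N, ∃ y, Tendsto u 𝒰 (𝓝 y) := fun u => by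
    obtain ⟨y, -, hy⟩ := isCompact_univ.ultrafilter_le_nhds (𝒰.map u) (by simp)
    exact ⟨y, hy⟩
  choose f0 hf0 using fun x => limN fun i => F i x
  have lf : ∀ x x', dist (f0 x) (f0 x') ≤ L0 * dist x x' := by
    intro x x'
    have h1 : Tendsto (fun i => (L i : ℝ) * dist x x') 𝒰 (𝓝 ((L0 : ℝ) * dist x x')) :=
      hLU.mul_const _
    exact le_of_tendsto_of_tendsto ((hf0 x).dist (hf0 x')) h1
      (Eventually.of_forall fun i => (hF i).dist_le_mul x x')
  have hlip : LipschitzWith L0 f0 := LipschitzWith.of_dist_le_mul lf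
  refine ⟨⟨f0, hlip.continuous⟩, hlip, fun η hη => ?_⟩
  have hev : ∀ᶠ k in (𝒰 : Filter ℕ), ∀ x, dist (F k x) (f0 x) < η := by
    set K : ℝ := (L0 : ℝ) + 1 with hK
    have hK0 : 0 < K := by positivity
    have hKev : ∀ᶠ k in (𝒰 : Filter ℕ), (L k : ℝ) < K :=
      hLU.eventually_lt_const (by rw [hK]; linarith)
    set δ : ℝ := η / (4 * K) with hδ
    have hδ0 : 0 < δ := by positivity
    obtain ⟨t, -, htf, ht⟩ := finite_cover_balls_of_compact (isCompact_univ (X := M)) hδ0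
    have hall : ∀ᶠ k in (𝒰 : Filter ℕ), ∀ c ∈ t, dist (F k c) (f0 c) < η / 4 := by
      rw [eventually_all_finite htf]
      intro c _
      exact (tendsto_iff_dist_tendsto_zero.1 (hf0 c)).eventually_lt_const (by positivity)
    filter_upwards [hKev, hall] with k h1 h2 x
    obtain ⟨c, hc, hxc⟩ := mem_iUnion₂.1 (ht (mem_univ x))
    rw [mem_ball] at hxc
    have e1 : dist (F k x) (F k c) ≤ η / 4 := by
      refine ((hF k).dist_le_mul x c).trans ?_
      have h3 : (L k : ℝ) * dist x c ≤ K * δ :=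
        mul_le_mul h1.le hxc.le dist_nonneg hK0.le
      have h4 : K * δ = η / 4 := by rw [hδ]; field_simp
      linarith
    have e2 : dist (f0 c) (f0 x) ≤ η / 4 := by
      refine (lf c x).trans ?_
      rw [dist_comm c x]
      have h3 : (L0 : ℝ) * dist x c ≤ K * δ :=
        mul_le_mul (by rw [hK]; linarith) hxc.le dist_nonneg hK0.le
      have h4 : K * δ = η / 4 := by rw [hδ]; field_simp
      linarith
    have e3 := h2 c hc
    have e4 := dist_triangle4 (F k x) (F k c) (f0 c) (f0 x)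
    linarith
  exact (hev.frequently).filter_mono hU

/-- Compactness for the problem of the least Lipschitz constant in a homotopy class. -/
theorem exists_min_lip {M : Type*} {N : Type*} [MetricSpace M] [CompactSpace M] [MetricSpace N]
    [CompactSpace N] {n : ℕ} (hn : n ≠ 0) (f : C(M, N))
    {η : ℝ} (hη : 0 < η)
    (hclose : ∀ F G : C(M, N), (∀ x, dist (F x) (G x) < η) → F.Homotopic G)
    {a b : ℝ≥0∞} (ha : a ≠ 0) (hb : b ≠ ⊤)
    (h : ∀ e : ℝ≥0∞, 0 < e → ∃ (F : C(M, N)) (K : ℝ≥0), F.Homotopic f ∧ LipschitzWith K F ∧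
      (K : ℝ≥0∞) ^ n * a < (1 + e) * b) :
    ∃ (F : C(M, N)) (K : ℝ≥0), F.Homotopic f ∧ LipschitzWith K F ∧
      (K : ℝ≥0∞) ^ n * a ≤ b := by
  have hpos : ∀ k : ℕ, (0 : ℝ≥0∞) < ((k : ℝ≥0∞) + 1)⁻¹ := fun k => by
    rw [ENNReal.inv_pos]
    exact ENNReal.add_ne_top.2 ⟨ENNReal.natCast_ne_top k, ENNReal.one_ne_top⟩
  choose F L hFf hFL hlt using fun k : ℕ => h _ (hpos k)
  rcases eq_or_ne a ⊤ with rfl | ha'
  · refine ⟨F 0, L 0, hFf 0, hFL 0, ?_⟩
    have h1 := hlt 0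
    have h2 : (L 0 : ℝ≥0∞) ^ n * ⊤ ≠ ⊤ := by
      refine (h1.trans_le le_top).ne
    have h3 : (L 0 : ℝ≥0∞) ^ n = 0 := by
      by_contra h4
      exact h2 (ENNReal.mul_top h4)
    rw [h3, zero_mul]
    exact zero_le
  -- the constants are bounded
  have hL1 : ∀ k, (L k : ℝ≥0∞) ^ n ≤ 2 * b / a := by
    intro k
    rw [ENNReal.le_div_iff_mul_le (Or.inl ha) (Or.inl ha')]
    refine (hlt k).le.trans ?_
    gcongr
    have h5 : ((k : ℝ≥0∞) + 1)⁻¹ ≤ 1 := by
      rw [ENNReal.inv_le_one]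
      exact le_add_self
    calc (1 : ℝ≥0∞) + ((k : ℝ≥0∞) + 1)⁻¹ ≤ 1 + 1 := by gcongr
      _ = 2 := one_add_one_eq_two
  have hC : 2 * b / a ≠ ⊤ := ENNReal.div_ne_top (ENNReal.mul_ne_top (by simp) hb) ha
  set B : ℝ≥0 := max 1 (2 * b / a).toNNReal with hB
  have hLB : ∀ k, L k ∈ Icc (0 : ℝ≥0) B := by
    intro k
    refine ⟨zero_le, ?_⟩
    rcases le_total (L k) 1 with h5 | h5
    · exact h5.trans (le_max_left _ _)
    · refine le_trans ?_ (le_max_right _ _)
      have h6 : L k ≤ L k ^ n := le_self_pow₀ h5 hn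
      refine h6.trans ?_
      rw [← ENNReal.coe_le_coe, ENNReal.coe_toNNReal hC, ENNReal.coe_pow]
      exact hL1 k
  obtain ⟨L0, -, φ, hφ, hlim⟩ := isCompact_Icc.tendsto_subseq hLB
  obtain ⟨f0, hf0, hf1⟩ := exists_limit (fun k => F (φ k)) (fun k => L (φ k))
    (fun k => hFL (φ k)) hlim
  refine ⟨f0, L0, ?_, hf0, ?_⟩
  · obtain ⟨k, hk⟩ := (hf1 η hη).exists
    exact (hclose _ _ hk).symm.trans (hFf (φ k))
  · have t1 : Tendsto (fun k => (L (φ k) : ℝ≥0∞) ^ n * a) atTop (𝓝 ((L0 : ℝ≥0∞) ^ n * a)) := by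
      refine ENNReal.Tendsto.mul_const ?_ (Or.inr ha')
      exact ENNReal.Tendsto.pow (ENNReal.tendsto_coe.2 hlim)
    have t2 : Tendsto (fun k => (1 + ((φ k : ℝ≥0∞) + 1)⁻¹) * b) atTop (𝓝 ((1 + 0) * b)) := by
      refine ENNReal.Tendsto.mul_const ?_ (Or.inr hb)
      refine tendsto_const_nhds.add ?_
      have t3 : Tendsto (fun k : ℕ => ((k : ℝ≥0∞) + 1)⁻¹) atTop (𝓝 0) := by
        have := ENNReal.tendsto_inv_nat_nhds_zero.comp (tendsto_add_atTop_nat 1)
        refine this.congr fun k => ?_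
        simp
      exact t3.comp hφ.tendsto_atTop
    rw [add_zero, one_mul] at t2
    exact le_of_tendsto_of_tendsto t1 t2 (Eventually.of_forall fun k => (hlt (φ k)).le)

end Vale.Agent.P260.R3.H283
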